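import Vale.Agent.P252.Main

namespace Vale.Agent.Results.P252.Counterexample

open Vale.Agent.P252 Matrix
open scoped ContDiff

/-- For every `n ≥ 10` there is a smooth entire function on `ℝⁿ` with positive definite Hessian
that solves the affine maximal equation and is not a polynomial of degree at most two. -/
theorem result (n : ℕ) (hn : 10 ≤ n) : ∃ u : (Fin n → ℝ) → ℝ,
    ContDiff ℝ ∞ u ∧ (∀ x, (hess u x).PosDef) ∧ AffineMaximal u ∧
    ¬ ∃ (A : Matrix (Fin n) (Fin n) ℝ) (b : Fin n → ℝ) (c : ℝ),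
      ∀ x, u x = 1 / 2 * (x ⬝ᵥ (A *ᵥ x)) + b ⬝ᵥ x + c := by
  obtain ⟨k, rfl⟩ : ∃ k, n = k + 2 := ⟨n - 2, by omega⟩
  obtain ⟨u, h1, h2, h3, h4⟩ := exists_counter k (by omega)
  refine ⟨u, h1, h2, h3, ?_⟩
  rintro ⟨A, b, c, h⟩
  have key : ∀ t s : ℝ, 0 ≤ s → s ^ 2 = t ^ 2 + 1 → s = 1 / 2 * (t * (A 0 0 * t)) + b 0 * t + c := by
    intro t s hs hst
    have := h (Pi.single 0 t)
    rw [h4, ← hst, Real.sqrt_sq hs] at this
    simpa [mul_comm] using this
  have e1 := key 0 1 (by norm_num) (by norm_num)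
  have e2 := key (3 / 4) (5 / 4) (by norm_num) (by norm_num)
  have e3 := key (-3 / 4) (5 / 4) (by norm_num) (by norm_num)
  have e4 := key (4 / 3) (5 / 3) (by norm_num) (by norm_num)
  linarith

end Vale.Agent.Results.P252.Counterexample
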